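import Mathlib

/-!
Comparison of a Markov chain with an arbitrary coupling that has the same laws of
consecutive pairs (module P6 of the bounded treewidth theorem).
-/

namespace Vale.Agent.P235.H254

open Finset

/-- Laws of the consecutive pairs `(S_i, S_{i+1})`, `i < n`, of a process on `σ`. -/
structure PairLaw (σ : Type*) [Fintype σ] (n : ℕ) where
  mu : ℕ → σ → ℝ
  p : ℕ → σ → σ → ℝ
  p_nonneg : ∀ i a b, 0 ≤ p i a b
  mu_nonneg : ∀ i a, 0 ≤ mu i a
  left : ∀ i, i < n → ∀ a, ∑ b, p i a b = mu i a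
  right : ∀ i, i < n → ∀ b, ∑ a, p i a b = mu (i + 1) b

variable {σ : Type*} [Fintype σ] {n : ℕ}

/-- `phi i a` = conditional expectation of `f (S_0)` given `S_i = a` for the Markov chain. -/
noncomputable def phi (L : PairLaw σ n) (f : σ → ℝ) : ℕ → σ → ℝ
  | 0 => f
  | (i + 1) => fun b => (∑ a, L.p i a b * phi L f i a) / L.mu (i + 1) b

variable (L : PairLaw σ n) (f : σ → ℝ)

lemma p_eq_zero_right {i : ℕ} (hi : i < n) {b : σ} (h : L.mu (i + 1) b = 0) (a : σ) :
    L.p i a b = 0 := by
  have h1 := L.right i hi b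
  rw [h] at h1
  exact (Finset.sum_eq_zero_iff_of_nonneg (fun a _ => L.p_nonneg i a b)).1 h1 a (mem_univ a)

lemma p_eq_zero_left {i : ℕ} (hi : i < n) {a : σ} (h : L.mu i a = 0) (b : σ) :
    L.p i a b = 0 := by
  have h1 := L.left i hi a
  rw [h] at h1
  exact (Finset.sum_eq_zero_iff_of_nonneg (fun b _ => L.p_nonneg i a b)).1 h1 b (mem_univ b)

lemma phi_mul {i : ℕ} (hi : i < n) (b : σ) :
    ∑ a, L.p i a b * phi L f i a = L.mu (i + 1) b * phi L f (i + 1) b := by
  by_cases h : L.mu (i + 1) b = 0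
  · rw [h, zero_mul]
    exact Finset.sum_eq_zero (fun a _ => by rw [p_eq_zero_right L hi h a, zero_mul])
  · change _ = L.mu (i + 1) b * ((∑ a, L.p i a b * phi L f i a) / L.mu (i + 1) b)
    field_simp

lemma phi_mem (hf : ∀ a, 0 ≤ f a ∧ f a ≤ 1) :
    ∀ i, i ≤ n → ∀ a, 0 ≤ phi L f i a ∧ phi L f i a ≤ 1
  | 0, _, a => hf a
  | (i + 1), hi, b => by
      have ih := phi_mem hf i (by omega)
      change 0 ≤ (∑ a, L.p i a b * phi L f i a) / L.mu (i + 1) b ∧
        (∑ a, L.p i a b * phi L f i a) / L.mu (i + 1) b ≤ 1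
      refine ⟨div_nonneg (Finset.sum_nonneg fun a _ =>
        mul_nonneg (L.p_nonneg i a b) (ih a).1) (L.mu_nonneg _ _), ?_⟩
      refine div_le_one_of_le₀ ?_ (L.mu_nonneg _ _)
      rw [← L.right i (by omega) b]
      refine Finset.sum_le_sum fun a _ => ?_
      have := mul_le_mul_of_nonneg_left (ih a).2 (L.p_nonneg i a b)
      linarith

/-- sum of a function of the first coordinate -/
lemma sum_left {i : ℕ} (hi : i < n) (g : σ → ℝ) :
    ∑ a, ∑ b, L.p i a b * g a = ∑ a, L.mu i a * g a := by
  refine Finset.sum_congr rfl fun a _ => ?_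
  rw [← L.left i hi a, Finset.sum_mul]

lemma sum_right {i : ℕ} (hi : i < n) (g : σ → ℝ) :
    ∑ a, ∑ b, L.p i a b * g b = ∑ b, L.mu (i + 1) b * g b := by
  rw [Finset.sum_comm]
  refine Finset.sum_congr rfl fun b _ => ?_
  rw [← L.right i hi b, Finset.sum_mul]

/-- mean -/
noncomputable def Mn (i : ℕ) : ℝ := ∑ a, L.mu i a * phi L f i a
/-- second moment -/
noncomputable def Q2 (i : ℕ) : ℝ := ∑ a, L.mu i a * phi L f i a ^ 2
/-- energy -/
noncomputable def En (i : ℕ) : ℝ := ∑ a, L.mu i a * (phi L f i a * (1 - phi L f i a))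

lemma En_eq (i : ℕ) : En L f i = Mn L f i - Q2 L f i := by
  unfold En Mn Q2
  rw [← Finset.sum_sub_distrib]
  exact Finset.sum_congr rfl fun a _ => by ring

lemma Mn_succ {i : ℕ} (hi : i < n) : Mn L f (i + 1) = Mn L f i := by
  unfold Mn
  rw [← sum_left L hi (phi L f i), Finset.sum_comm]
  exact Finset.sum_congr rfl fun b _ => (phi_mul L f hi b).symm

lemma Mn_eq : ∀ i, i ≤ n → Mn L f i = Mn L f 0
  | 0, _ => rfl
  | (i + 1), hi => by rw [Mn_succ L f (by omega), Mn_eq i (by omega)]

lemma step_energy {i : ℕ} (hi : i < n) :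
    ∑ a, ∑ b, L.p i a b * (phi L f i a - phi L f (i + 1) b) ^ 2
      = En L f (i + 1) - En L f i := by
  have h1 : ∑ a, ∑ b, L.p i a b * (phi L f i a) ^ 2 = Q2 L f i :=
    sum_left L hi (fun a => phi L f i a ^ 2)
  have h2 : ∑ a, ∑ b, L.p i a b * (phi L f (i + 1) b) ^ 2 = Q2 L f (i + 1) :=
    sum_right L hi (fun b => phi L f (i + 1) b ^ 2)
  have h3 : ∑ a, ∑ b, L.p i a b * (phi L f i a * phi L f (i + 1) b) = Q2 L f (i + 1) := by
    rw [Finset.sum_comm]
    unfold Q2
    refine Finset.sum_congr rfl fun b _ => ?_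
    rw [pow_two, ← mul_assoc, ← phi_mul L f hi b, Finset.sum_mul]
    exact Finset.sum_congr rfl fun a _ => by ring
  have h4 : ∑ a, ∑ b, L.p i a b * (phi L f i a - phi L f (i + 1) b) ^ 2
      = ∑ a, ∑ b, L.p i a b * (phi L f i a) ^ 2
        - 2 * ∑ a, ∑ b, L.p i a b * (phi L f i a * phi L f (i + 1) b)
        + ∑ a, ∑ b, L.p i a b * (phi L f (i + 1) b) ^ 2 := by
    rw [Finset.mul_sum, ← Finset.sum_sub_distrib, ← Finset.sum_add_distrib]
    refine Finset.sum_congr rfl fun a _ => ?_
    rw [Finset.mul_sum, ← Finset.sum_sub_distrib, ← Finset.sum_add_distrib]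
    exact Finset.sum_congr rfl fun b _ => by ring
  rw [h4, h1, h2, h3, En_eq, En_eq, Mn_succ L f hi]
  ring

lemma En_succ_le {i : ℕ} (hi : i < n) : En L f i ≤ En L f (i + 1) := by
  have h := step_energy L f hi
  have : 0 ≤ ∑ a, ∑ b, L.p i a b * (phi L f i a - phi L f (i + 1) b) ^ 2 :=
    Finset.sum_nonneg fun a _ => Finset.sum_nonneg fun b _ =>
      mul_nonneg (L.p_nonneg i a b) (sq_nonneg _)
  linarith

lemma En_mono {s t : ℕ} (hst : s ≤ t) (ht : t ≤ n) : En L f s ≤ En L f t := by
  induction t, hst using Nat.le_induction with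
  | base => exact le_refl _
  | succ t hst ih => exact (ih (by omega)).trans (En_succ_le L f (by omega))

/-- `max (x^2) (chord)` -/
noncomputable def gg (α β x : ℝ) : ℝ := max (x ^ 2) ((α + β) * x - α * β)

lemma gg_eq (α β x : ℝ) : gg α β x = x ^ 2 + max 0 ((x - α) * (β - x)) := by
  unfold gg
  rcases le_total 0 ((x - α) * (β - x)) with h | h
  · rw [max_eq_right h, max_eq_right (by nlinarith)]
    ring
  · rw [max_eq_left h, max_eq_left (by nlinarith)]
    ring

noncomputable def G2 (α β : ℝ) (i : ℕ) : ℝ := ∑ a, L.mu i a * gg α β (phi L f i a)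

lemma G2_succ_le {i : ℕ} (hi : i < n) (α β : ℝ) : G2 L f α β (i + 1) ≤ G2 L f α β i := by
  unfold G2
  rw [← sum_left L hi (fun a => gg α β (phi L f i a)), Finset.sum_comm]
  refine Finset.sum_le_sum fun b _ => ?_
  set x := phi L f (i + 1) b with hx
  have hm := phi_mul L f hi b
  have hr := L.right i hi b
  rcases le_total (x ^ 2) ((α + β) * x - α * β) with h | h
  · have e : gg α β x = (α + β) * x - α * β := max_eq_right h
    rw [e]
    have : L.mu (i + 1) b * ((α + β) * x - α * β)
        = ∑ a, L.p i a b * ((α + β) * phi L f i a - α * β) := by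
      have : ∑ a, L.p i a b * ((α + β) * phi L f i a - α * β)
          = (α + β) * ∑ a, L.p i a b * phi L f i a - (∑ a, L.p i a b) * (α * β) := by
        rw [Finset.mul_sum, Finset.sum_mul, ← Finset.sum_sub_distrib]
        exact Finset.sum_congr rfl fun a _ => by ring
      rw [this, hm, hr]; ring
    rw [this]
    exact Finset.sum_le_sum fun a _ =>
      mul_le_mul_of_nonneg_left (le_max_right _ _) (L.p_nonneg i a b)
  · have e : gg α β x = x ^ 2 := max_eq_left h
    rw [e]
    have h0 : 0 ≤ ∑ a, L.p i a b * (phi L f i a - x) ^ 2 :=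
      Finset.sum_nonneg fun a _ => mul_nonneg (L.p_nonneg i a b) (sq_nonneg _)
    have h1 : ∑ a, L.p i a b * (phi L f i a - x) ^ 2
        = ∑ a, L.p i a b * phi L f i a ^ 2 - 2 * x * ∑ a, L.p i a b * phi L f i a
          + (∑ a, L.p i a b) * x ^ 2 := by
      rw [Finset.mul_sum, Finset.sum_mul, ← Finset.sum_sub_distrib, ← Finset.sum_add_distrib]
      exact Finset.sum_congr rfl fun a _ => by ring
    rw [h1, hm, hr] at h0
    have h2 : L.mu (i + 1) b * x ^ 2 ≤ ∑ a, L.p i a b * phi L f i a ^ 2 := by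
      rw [← hx] at h0; nlinarith
    exact h2.trans (Finset.sum_le_sum fun a _ =>
      mul_le_mul_of_nonneg_left (le_max_left _ _) (L.p_nonneg i a b))

lemma G2_anti {s t : ℕ} (hst : s ≤ t) (ht : t ≤ n) (α β : ℝ) :
    G2 L f α β t ≤ G2 L f α β s := by
  induction t, hst using Nat.le_induction with
  | base => exact le_refl _
  | succ t hst ih => exact (G2_succ_le L f (by omega) α β).trans (ih (by omega))

/-- number of states whose value lies in the open interval -/
noncomputable def cnt (i : ℕ) (α β : ℝ) : ℕ := by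
  classical
  exact (univ.filter (fun a => L.mu i a ≠ 0 ∧ α < phi L f i a ∧ phi L f i a < β)).card

lemma cnt_zero {i : ℕ} {α β : ℝ} (h : cnt L f i α β = 0) {a : σ} (ha : L.mu i a ≠ 0) :
    phi L f i a ≤ α ∨ β ≤ phi L f i a := by
  classical
  unfold cnt at h
  rw [Finset.card_eq_zero, Finset.filter_eq_empty_iff] at h
  by_contra hc
  push Not at hc
  exact h (mem_univ a) ⟨ha, hc.1, hc.2⟩

lemma cnt_mono {i : ℕ} {α β γ δ : ℝ} (h1 : α ≤ γ) (h2 : δ ≤ β) :
    cnt L f i γ δ ≤ cnt L f i α β := by
  classical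
  unfold cnt
  refine Finset.card_le_card fun a => ?_
  simp only [mem_filter, mem_univ, true_and]
  rintro ⟨h, h3, h4⟩
  exact ⟨h, by linarith, by linarith⟩

/-- if the small interval contains as many values as the big one, then all values of the big one
are in the small one. -/
lemma cnt_full {i j : ℕ} {α β γ δ : ℝ} (h1 : α ≤ γ) (h2 : δ ≤ β)
    (hb : cnt L f i α β ≤ j) (hs : j ≤ cnt L f i γ δ) {a : σ} (ha : L.mu i a ≠ 0)
    (h3 : α < phi L f i a) (h4 : phi L f i a < β) :
    γ < phi L f i a ∧ phi L f i a < δ := by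
  classical
  have hsub : (univ.filter (fun a => L.mu i a ≠ 0 ∧ γ < phi L f i a ∧ phi L f i a < δ)) ⊆
      (univ.filter (fun a => L.mu i a ≠ 0 ∧ α < phi L f i a ∧ phi L f i a < β)) := by
    intro a
    simp only [mem_filter, mem_univ, true_and]
    rintro ⟨h, h3, h4⟩
    exact ⟨h, by linarith, by linarith⟩
  have heq := Finset.eq_of_subset_of_card_le hsub (le_trans hb hs)
  have hm : a ∈ (univ.filter (fun a => L.mu i a ≠ 0 ∧ α < phi L f i a ∧ phi L f i a < β)) := by
    simp only [mem_filter, mem_univ, true_and]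
    exact ⟨ha, h3, h4⟩
  rw [← heq] at hm
  simp only [mem_filter, mem_univ, true_and] at hm
  exact hm.2

lemma psi_bound {s t : ℕ} (hst : s ≤ t) (ht : t ≤ n) {α β : ℝ} (h0 : cnt L f s α β = 0)
    (hab : α ≤ β) :
    ∑ a, L.mu t a * max 0 ((phi L f t a - α) * (β - phi L f t a)) ≤ En L f t - En L f s := by
  have h1 : G2 L f α β t = Q2 L f t
      + ∑ a, L.mu t a * max 0 ((phi L f t a - α) * (β - phi L f t a)) := by
    unfold G2 Q2
    rw [← Finset.sum_add_distrib]
    exact Finset.sum_congr rfl fun a _ => by rw [gg_eq]; ring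
  have h2 : G2 L f α β s = Q2 L f s := by
    unfold G2 Q2
    refine Finset.sum_congr rfl fun a _ => ?_
    by_cases ha : L.mu s a = 0
    · rw [ha]; ring
    · rw [gg_eq]
      have : (phi L f s a - α) * (β - phi L f s a) ≤ 0 := by
        rcases cnt_zero L f h0 ha with h | h
        · nlinarith
        · nlinarith
      rw [max_eq_left this, add_zero]
  have h3 := G2_anti L f hst ht α β
  have h4 : Mn L f s = Mn L f t := by
    rw [Mn_eq L f s (by omega), Mn_eq L f t ht]
  rw [En_eq, En_eq]
  linarith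

/-- probability that the value at time `t` is in the middle half of an interval which was empty
at time `s`. -/
lemma bad_bound {s t : ℕ} (hst : s ≤ t) (ht : t ≤ n) {γ δ : ℝ} (hgd : γ < δ)
    (h0 : cnt L f s γ δ = 0) (Bad : σ → Prop) [DecidablePred Bad]
    (hBad : ∀ a, Bad a → γ + (δ - γ) / 4 < phi L f t a ∧ phi L f t a < δ - (δ - γ) / 4) :
    ∑ a, L.mu t a * (if Bad a then 1 else 0) ≤ 16 / (3 * (δ - γ) ^ 2) * (En L f t - En L f s) := by
  have h1 := psi_bound L f hst ht h0 hgd.le
  have hpos : 0 < (δ - γ) ^ 2 := by positivity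
  have h2 : (3 * (δ - γ) ^ 2 / 16) * ∑ a, L.mu t a * (if Bad a then 1 else 0) ≤
      ∑ a, L.mu t a * max 0 ((phi L f t a - γ) * (δ - phi L f t a)) := by
    rw [Finset.mul_sum]
    refine Finset.sum_le_sum fun a _ => ?_
    by_cases hb : Bad a
    · rw [if_pos hb]
      obtain ⟨h3, h4⟩ := hBad a hb
      have h5 : 3 * (δ - γ) ^ 2 / 16 ≤ (phi L f t a - γ) * (δ - phi L f t a) := by
        nlinarith [mul_nonneg (sub_nonneg.2 h3.le) (sub_nonneg.2 h4.le)]
      have h6 := h5.trans (le_max_right 0 _)
      have := mul_le_mul_of_nonneg_left h6 (L.mu_nonneg t a)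
      linarith
    · rw [if_neg hb]
      have := mul_nonneg (L.mu_nonneg t a)
        (le_max_left (0 : ℝ) ((phi L f t a - γ) * (δ - phi L f t a)))
      linarith
  have h7 : (3 * (δ - γ) ^ 2 / 16) * ∑ a, L.mu t a * (if Bad a then 1 else 0)
      ≤ En L f t - En L f s := h2.trans h1
  have h8 : 16 / (3 * (δ - γ) ^ 2) * ((3 * (δ - γ) ^ 2 / 16) *
      ∑ a, L.mu t a * (if Bad a then (1 : ℝ) else 0)) =
      ∑ a, L.mu t a * (if Bad a then (1 : ℝ) else 0) := by
    rw [← mul_assoc]
    have h9 : 16 / (3 * (δ - γ) ^ 2) * (3 * (δ - γ) ^ 2 / 16) = 1 := by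
      have : (δ - γ) ^ 2 ≠ 0 := hpos.ne'
      generalize (δ - γ) ^ 2 = X at *
      field_simp
    rw [h9, one_mul]
  rw [← h8]
  exact mul_le_mul_of_nonneg_left h7 (by positivity)

/-- probability that the two threshold labels differ -/
noncomputable def Pr (i : ℕ) (θ θ' : ℝ) : ℝ := by
  classical
  exact ∑ a, ∑ b, L.p i a b *
    (if (θ ≤ phi L f i a ↔ θ' ≤ phi L f (i + 1) b) then 0 else 1)

lemma Pr_le {i : ℕ} (hi : i < n) {θ θ' δ : ℝ} (hδ : 0 < δ) (Bad : σ → Prop)
    [DecidablePred Bad]
    (h : ∀ a b, L.mu i a ≠ 0 → L.mu (i + 1) b ≠ 0 →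
      ¬ (θ ≤ phi L f i a ↔ θ' ≤ phi L f (i + 1) b) →
      Bad b ∨ δ ≤ |phi L f i a - phi L f (i + 1) b|) :
    Pr L f i θ θ' ≤ (En L f (i + 1) - En L f i) / δ ^ 2
      + ∑ b, L.mu (i + 1) b * (if Bad b then 1 else 0) := by
  classical
  unfold Pr
  rw [← step_energy L f hi, ← sum_right L hi (fun b => if Bad b then (1 : ℝ) else 0),
    Finset.sum_div, ← Finset.sum_add_distrib]
  refine Finset.sum_le_sum fun a _ => ?_
  rw [Finset.sum_div, ← Finset.sum_add_distrib]
  refine Finset.sum_le_sum fun b _ => ?_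
  have hp := L.p_nonneg i a b
  have hsq : 0 ≤ L.p i a b * (phi L f i a - phi L f (i + 1) b) ^ 2 / δ ^ 2 := by positivity
  have hind : 0 ≤ L.p i a b * (if Bad b then (1 : ℝ) else 0) :=
    mul_nonneg hp (by split_ifs <;> norm_num)
  by_cases hiff : (θ ≤ phi L f i a ↔ θ' ≤ phi L f (i + 1) b)
  · simp only [hiff, if_true, mul_zero]
    positivity
  · rw [if_neg hiff, mul_one]
    by_cases hp0 : L.p i a b = 0
    · simp [hp0]
    · have ha : L.mu i a ≠ 0 := fun h0 => hp0 (p_eq_zero_left L hi h0 b)
      have hb : L.mu (i + 1) b ≠ 0 := fun h0 => hp0 (p_eq_zero_right L hi h0 a)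
      rcases h a b ha hb hiff with h1 | h1
      · rw [if_pos h1]
        linarith
      · have h2 : δ ^ 2 ≤ (phi L f i a - phi L f (i + 1) b) ^ 2 := by
          rw [← sq_abs (phi L f i a - phi L f (i + 1) b)]
          exact pow_le_pow_left₀ hδ.le h1 2
        have h3 : L.p i a b ≤ L.p i a b * (phi L f i a - phi L f (i + 1) b) ^ 2 / δ ^ 2 := by
          rw [le_div_iff₀ (by positivity)]
          exact mul_le_mul_of_nonneg_left h2 hp
        linarith

/-- the constants -/
def CC : ℕ → ℝ
  | 0 => 4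
  | (j + 1) => 36 * CC j + 48

lemma four_le_CC : ∀ j, 4 ≤ CC j
  | 0 => le_refl _
  | (j + 1) => by
      have := four_le_CC j
      change 4 ≤ 36 * CC j + 48
      linarith

lemma CC_le (j : ℕ) : CC j + 2 ≤ 6 * 36 ^ j := by
  induction j with
  | zero => change (4 : ℝ) + 2 ≤ _; norm_num
  | succ j ih =>
      change 36 * CC j + 48 + 2 ≤ _
      rw [pow_succ]
      linarith

/-- the statement for frames with at most `j` values -/
def Claim (j : ℕ) : Prop :=
  ∀ (α β : ℝ) (s t : ℕ), α < β → s ≤ t → t ≤ n → cnt L f s α β = 0 →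
    (∀ i, s ≤ i → i ≤ t → cnt L f i α β ≤ j) →
    ∃ θ : ℕ → ℝ, (∀ i, s ≤ i → i ≤ t → α < θ i ∧ θ i < β) ∧
      ∑ i ∈ Ico s t, Pr L f i (θ i) (θ (i + 1)) ≤
        CC j / (β - α) ^ 2 * (En L f t - En L f s)

lemma sum_En {s t : ℕ} (hst : s ≤ t) (c : ℝ) :
    ∑ i ∈ Ico s t, (En L f (i + 1) - En L f i) * c = (En L f t - En L f s) * c := by
  rw [← Finset.sum_mul, Finset.sum_Ico_sub _ hst]

lemma claim_zero : Claim L f 0 := by
  intro α β s t hab hst ht _ hc
  refine ⟨fun _ => (α + β) / 2, fun i _ _ => ⟨by linarith, by linarith⟩, ?_⟩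
  have hstep : ∀ i ∈ Ico s t, Pr L f i ((α + β) / 2) ((α + β) / 2) ≤
      (En L f (i + 1) - En L f i) * (1 / (β - α) ^ 2) := by
    intro i hi
    rw [mem_Ico] at hi
    have h := Pr_le L f (i := i) (by omega) (θ := (α + β) / 2) (θ' := (α + β) / 2)
      (δ := β - α) (by linarith) (fun _ => False) (by
        intro a b ha hb hne
        right
        have h1 := cnt_zero L f (Nat.le_zero.1 (hc i hi.1 hi.2.le)) ha
        have h2 := cnt_zero L f (Nat.le_zero.1 (hc (i + 1) (by omega) (by omega))) hb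
        rcases h1 with h1 | h1 <;> rcases h2 with h2 | h2
        · exfalso; apply hne
          constructor <;> intro h3 <;> linarith
        · rw [abs_sub_comm, abs_of_nonneg (by linarith)]; linarith
        · rw [abs_of_nonneg (by linarith)]; linarith
        · exfalso; apply hne
          constructor <;> intro h3 <;> linarith)
    simp only [if_false, mul_zero, Finset.sum_const_zero, add_zero] at h
    rw [mul_one_div]
    exact h
  refine (Finset.sum_le_sum hstep).trans ?_
  rw [sum_En L f hst]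
  have h0 : 0 ≤ En L f t - En L f s := sub_nonneg.2 (En_mono L f hst ht)
  have hpos : 0 < (β - α) ^ 2 := by
    have : 0 < β - α := by linarith
    positivity
  change _ ≤ (4 : ℝ) / _ * _
  rw [mul_comm]
  refine mul_le_mul_of_nonneg_right ?_ h0
  rw [div_le_div_iff_of_pos_right hpos]
  norm_num

lemma claim_succ (j : ℕ) (IH : Claim L f j) {α β : ℝ} (hab : α < β) :
    ∀ (m s t : ℕ), t - s ≤ m → s ≤ t → t ≤ n → ∀ (γ δ : ℝ), α ≤ γ → δ ≤ β →
    δ - γ = (β - α) / 3 → cnt L f s γ δ = 0 →
    (∀ i, s ≤ i → i ≤ t → cnt L f i α β ≤ j + 1) →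
    ∃ θ : ℕ → ℝ, (∀ i, s ≤ i → i ≤ t → α < θ i ∧ θ i < β) ∧
      ∑ i ∈ Ico s t, Pr L f i (θ i) (θ (i + 1)) ≤
        CC (j + 1) / (β - α) ^ 2 * (En L f t - En L f s) := by
  intro m
  induction m with
  | zero =>
      intro s t hm hst ht γ δ h1 h2 h3 h0 hc
      have hst' : s = t := by omega
      subst hst'
      refine ⟨fun _ => (α + β) / 2, fun i _ _ => ⟨by linarith, by linarith⟩, ?_⟩
      simp
  | succ m ihm =>
      intro s t hm hst ht γ δ h1 h2 h3 h0 hc
      have hB : 0 < β - α := by linarith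
      have hC4 := four_le_CC j
      set γ' := γ + (δ - γ) / 4 with hγ'
      set δ' := δ - (δ - γ) / 4 with hδ'
      have hlen : δ' - γ' = (β - α) / 6 := by rw [hγ', hδ']; linarith
      have h0' : cnt L f s γ' δ' = 0 := by
        have := cnt_mono L f (i := s) (α := γ) (β := δ) (γ := γ') (δ := δ')
          (by linarith) (by linarith)
        omega
      by_cases hall : ∀ i, s ≤ i → i ≤ t → cnt L f i γ' δ' ≤ j
      · obtain ⟨θ, hθ, hsum⟩ := IH γ' δ' s t (by linarith) hst ht h0' hall
        refine ⟨θ, fun i hi hi' => ?_, ?_⟩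
        · have := hθ i hi hi'
          constructor <;> linarith [this.1, this.2]
        · refine hsum.trans ?_
          refine mul_le_mul_of_nonneg_right ?_ (sub_nonneg.2 (En_mono L f hst ht))
          rw [hlen]
          change _ ≤ (36 * CC j + 48) / _
          rw [div_pow, div_div_eq_mul_div, div_le_div_iff_of_pos_right (by positivity)]
          linarith
      · push Not at hall
        classical
        set s1 := Nat.find hall with hs1
        have hs1spec := Nat.find_spec hall
        rw [← hs1] at hs1spec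
        obtain ⟨hs1a, hs1b, hs1c⟩ := hs1spec
        have hne : s1 ≠ s := by
          intro h
          rw [h, h0'] at hs1c
          omega
        have hlt : s < s1 := by omega
        have hmin : ∀ i, s ≤ i → i ≤ s1 - 1 → cnt L f i γ' δ' ≤ j := by
          intro i hi hi'
          have := Nat.find_min hall (m := i) (by omega)
          push Not at this
          exact this hi (by omega)
        obtain ⟨θ1, hθ1, hsum1⟩ := IH γ' δ' s (s1 - 1) (by linarith) (by omega) (by omega)
          h0' hmin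
        have hfull : ∀ a, L.mu s1 a ≠ 0 → α < phi L f s1 a → phi L f s1 a < β →
            γ' < phi L f s1 a ∧ phi L f s1 a < δ' := fun a ha h4 h5 =>
          cnt_full L f (by linarith) (by linarith) (hc s1 hs1a hs1b) (by omega) ha h4 h5
        -- the new empty third
        obtain ⟨γ2, δ2, g1, g2, g3, g4⟩ : ∃ γ2 δ2 : ℝ, α ≤ γ2 ∧ δ2 ≤ β ∧
            δ2 - γ2 = (β - α) / 3 ∧ (δ2 ≤ γ' ∨ δ' ≤ γ2) := by
          by_cases h6 : (β - α) / 3 ≤ γ' - α
          · exact ⟨α, α + (β - α) / 3, le_refl _, by linarith, by ring, Or.inl (by linarith)⟩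
          · refine ⟨β - (β - α) / 3, β, by linarith, le_refl _, by ring, Or.inr ?_⟩
            push Not at h6
            linarith
        have h0'' : cnt L f s1 γ2 δ2 = 0 := by
          unfold cnt
          rw [Finset.card_eq_zero, Finset.filter_eq_empty_iff]
          rintro a - ⟨ha, h4, h5⟩
          have := hfull a ha (by linarith) (by linarith)
          rcases g4 with h6 | h6 <;> linarith [this.1, this.2]
        obtain ⟨θ2, hθ2, hsum2⟩ := ihm s1 t (by omega) hs1b ht γ2 δ2 g1 g2 g3 h0''
          (fun i hi hi' => hc i (by omega) hi')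
        refine ⟨fun i => if i < s1 then θ1 i else θ2 i, fun i hi hi' => ?_, ?_⟩
        · by_cases h7 : i < s1
          · simp only [if_pos h7]
            have := hθ1 i hi (by omega)
            constructor <;> linarith [this.1, this.2]
          · simp only [if_neg h7]
            exact hθ2 i (by omega) hi'
        · have hsplit : Ico s t = Ico s (s1 - 1) ∪ ({s1 - 1} ∪ Ico s1 t) := by
            ext i
            simp only [mem_union, mem_Ico, mem_singleton]
            omega
          have hd1 : Disjoint (Ico s (s1 - 1)) ({s1 - 1} ∪ Ico s1 t) := by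
            rw [Finset.disjoint_left]
            intro i
            simp only [mem_union, mem_Ico, mem_singleton]
            omega
          have hd2 : Disjoint ({s1 - 1} : Finset ℕ) (Ico s1 t) := by
            rw [Finset.disjoint_left]
            intro i
            simp only [mem_Ico, mem_singleton]
            omega
          by_cases hlast : s1 - 1 < t
          swap
          · omega
          rw [hsplit, Finset.sum_union hd1, Finset.sum_union hd2, Finset.sum_singleton]
          have e1 : ∑ i ∈ Ico s (s1 - 1), Pr L f i ((fun i => if i < s1 then θ1 i else θ2 i) i)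
              ((fun i => if i < s1 then θ1 i else θ2 i) (i + 1)) =
              ∑ i ∈ Ico s (s1 - 1), Pr L f i (θ1 i) (θ1 (i + 1)) := by
            refine Finset.sum_congr rfl fun i hi => ?_
            rw [mem_Ico] at hi
            simp only
            rw [if_pos (by omega), if_pos (by omega)]
          have e3 : ∑ i ∈ Ico s1 t, Pr L f i ((fun i => if i < s1 then θ1 i else θ2 i) i)
              ((fun i => if i < s1 then θ1 i else θ2 i) (i + 1)) =
              ∑ i ∈ Ico s1 t, Pr L f i (θ2 i) (θ2 (i + 1)) := by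
            refine Finset.sum_congr rfl fun i hi => ?_
            rw [mem_Ico] at hi
            simp only
            rw [if_neg (by omega), if_neg (by omega)]
          have e2 : Pr L f (s1 - 1) ((fun i => if i < s1 then θ1 i else θ2 i) (s1 - 1))
              ((fun i => if i < s1 then θ1 i else θ2 i) (s1 - 1 + 1)) =
              Pr L f (s1 - 1) (θ1 (s1 - 1)) (θ2 s1) := by
            simp only
            rw [if_pos (by omega), if_neg (by omega)]
            congr 2
            omega
          rw [e1, e2, e3]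
          have hs1' : s1 - 1 + 1 = s1 := by omega
          have q1 := hθ1 (s1 - 1) (by omega) (le_refl _)
          have q2 := hθ2 s1 (le_refl _) hs1b
          have hPr := Pr_le L f (i := s1 - 1) (by omega) (θ := θ1 (s1 - 1)) (θ' := θ2 s1)
            (δ := (β - α) / 12) (by linarith)
            (fun b => γ' < phi L f s1 b ∧ phi L f s1 b < δ') (by
              rw [hs1']
              intro a b ha hb hiff
              by_cases hin : α < phi L f s1 b ∧ phi L f s1 b < β
              · left
                exact hfull b hb hin.1 hin.2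
              · right
                by_cases h8 : θ1 (s1 - 1) ≤ phi L f (s1 - 1) a
                · have h9 : ¬ θ2 s1 ≤ phi L f s1 b := fun h => hiff ⟨fun _ => h, fun _ => h8⟩
                  have h10 : phi L f s1 b ≤ α := by
                    by_contra hcon
                    push Not at hcon h9
                    exact hin ⟨hcon, by linarith [q2.2]⟩
                  rw [abs_of_nonneg (by linarith [q1.1])]
                  linarith [q1.1]
                · have h9 : θ2 s1 ≤ phi L f s1 b := by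
                    by_contra hcon
                    exact hiff ⟨fun h => absurd h h8, fun h => absurd h hcon⟩
                  have h10 : β ≤ phi L f s1 b := by
                    by_contra hcon
                    push Not at hcon
                    exact hin ⟨by linarith [q2.1], hcon⟩
                  push Not at h8
                  rw [abs_sub_comm, abs_of_nonneg (by linarith [q1.2])]
                  linarith [q1.2])
          rw [hs1'] at hPr
          have hBad := bad_bound L f (s := s) (t := s1) hs1a (by omega) (γ := γ) (δ := δ)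
            (by linarith) h0 (fun b => γ' < phi L f s1 b ∧ phi L f s1 b < δ') (by
              intro a ha
              exact ha)
          have m1 : En L f s ≤ En L f (s1 - 1) := En_mono L f (by omega) (by omega)
          have m2 : En L f (s1 - 1) ≤ En L f s1 := En_mono L f (by omega) (by omega)
          have hX : (0 : ℝ) < (β - α) ^ 2 := by positivity
          rw [hlen] at hsum1
          rw [h3] at hBad
          have k1 : CC j / ((β - α) / 6) ^ 2 = 36 * CC j * (1 / (β - α) ^ 2) := by
            rw [div_pow]; field_simp; norm_num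
          have k2 : (En L f s1 - En L f (s1 - 1)) / ((β - α) / 12) ^ 2 =
              144 * (1 / (β - α) ^ 2) * (En L f s1 - En L f (s1 - 1)) := by
            rw [div_pow]; field_simp; norm_num
          have k3 : 16 / (3 * ((β - α) / 3) ^ 2) = 48 * (1 / (β - α) ^ 2) := by
            rw [div_pow]; field_simp; norm_num
          have k4 : CC (j + 1) / (β - α) ^ 2 = (36 * CC j + 48) * (1 / (β - α) ^ 2) := by
            change (36 * CC j + 48) / _ = _
            rw [mul_one_div]
          rw [k1] at hsum1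
          rw [k2] at hPr
          rw [k3] at hBad
          rw [k4] at hsum2 ⊢
          have hY : (0 : ℝ) < 1 / (β - α) ^ 2 := by positivity
          generalize 1 / (β - α) ^ 2 = Y at hsum1 hPr hBad hsum2 hY ⊢
          have w1 : 36 * CC j * Y * (En L f (s1 - 1) - En L f s)
              + 144 * Y * (En L f s1 - En L f (s1 - 1)) ≤
              36 * CC j * Y * (En L f s1 - En L f s) := by
            have : 144 * Y * (En L f s1 - En L f (s1 - 1)) ≤
                36 * CC j * Y * (En L f s1 - En L f (s1 - 1)) := by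
              refine mul_le_mul_of_nonneg_right ?_ (by linarith)
              refine mul_le_mul_of_nonneg_right ?_ hY.le
              linarith
            linarith
          linarith

theorem claim (j : ℕ) : Claim L f j := by
  induction j with
  | zero => exact claim_zero L f
  | succ j IH =>
      intro α β s t hab hst ht h0 hc
      refine claim_succ L f j IH hab (t - s) s t (le_refl _) hst ht α (α + (β - α) / 3)
        (le_refl _) (by linarith) (by ring) ?_ hc
      have := cnt_mono L f (i := s) (α := α) (β := β) (γ := α) (δ := α + (β - α) / 3)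
        (le_refl _) (by linarith)
      omega

/-- at most `N` states are charged at each time -/
def AtMost (N : ℕ) : Prop :=
  ∀ i, i ≤ n → ∃ T : Finset σ, T.card ≤ N ∧ ∀ a, L.mu i a ≠ 0 → a ∈ T

lemma cnt_le {N : ℕ} (hN : AtMost L N) {i : ℕ} (hi : i ≤ n) (α β : ℝ) :
    cnt L f i α β ≤ N := by
  classical
  obtain ⟨T, hT, hT2⟩ := hN i hi
  unfold cnt
  refine (Finset.card_le_card fun a => ?_).trans hT
  simp only [mem_filter, mem_univ, true_and]
  exact fun h => hT2 a h.1

/-- the comparison constant -/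
def KK (N : ℕ) : ℝ := 24 * 36 ^ N

lemma KK_pos (N : ℕ) : 0 < KK N := by unfold KK; positivity

lemma one_le_KK (N : ℕ) : 1 ≤ KK N := by
  unfold KK
  have : (1 : ℝ) ≤ 36 ^ N := one_le_pow₀ (by norm_num)
  linarith

/-- error functional: for the Markov chain this is the probability that `f (S_0)` and
`h (S_n)` differ. -/
noncomputable def Err (h : σ → ℝ) : ℝ :=
  ∑ b, L.mu n b * |phi L f n b - h b|

lemma En_zero (hf : ∀ a, f a = 0 ∨ f a = 1) : En L f 0 = 0 := by
  unfold En
  refine Finset.sum_eq_zero fun a _ => ?_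
  change L.mu 0 a * (f a * (1 - f a)) = 0
  rcases hf a with h | h <;> rw [h] <;> ring

lemma En_le_Err (hf : ∀ a, f a = 0 ∨ f a = 1) {h : σ → ℝ} (hh : ∀ a, h a = 0 ∨ h a = 1) :
    En L f n ≤ Err L f h := by
  unfold En Err
  refine Finset.sum_le_sum fun b _ => mul_le_mul_of_nonneg_left ?_ (L.mu_nonneg n b)
  have hf' : ∀ a, 0 ≤ f a ∧ f a ≤ 1 := fun a => by rcases hf a with h | h <;> rw [h] <;> norm_num
  obtain ⟨h1, h2⟩ := phi_mem L f hf' n (le_refl n) b
  rcases hh b with h3 | h3
  · rw [h3, sub_zero, abs_of_nonneg h1]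
    nlinarith
  · rw [h3, abs_sub_comm, abs_of_nonneg (by linarith)]
    nlinarith

variable {Ω : Type*} [Fintype Ω]

/-- `w` and `S` form a process with the pair laws `L` (test function form). -/
structure HasPairs (w : Ω → ℝ) (S : ℕ → Ω → σ) : Prop where
  nonneg : ∀ ω, 0 ≤ w ω
  pair : ∀ i, i < n → ∀ g : σ → σ → ℝ,
    ∑ ω, w ω * g (S i ω) (S (i + 1) ω) = ∑ a, ∑ b, L.p i a b * g a b
  last : ∀ g : σ → ℝ, ∑ ω, w ω * g (S n ω) = ∑ b, L.mu n b * g b

/-- indicator form of the hypotheses -/
lemma HasPairs.of_ind [DecidableEq σ] {w : Ω → ℝ} {S : ℕ → Ω → σ} (h0 : ∀ ω, 0 ≤ w ω)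
    (hp : ∀ i, i < n → ∀ a b,
      ∑ ω, (if S i ω = a ∧ S (i + 1) ω = b then w ω else 0) = L.p i a b)
    (hl : ∀ b, ∑ ω, (if S n ω = b then w ω else 0) = L.mu n b) : HasPairs L w S where
  nonneg := h0
  pair := by
    intro i hi g
    have h1 : ∀ a b, L.p i a b * g a b =
        ∑ ω, (if S i ω = a ∧ S (i + 1) ω = b then w ω * g a b else 0) := by
      intro a b
      rw [← hp i hi a b, Finset.sum_mul]
      exact Finset.sum_congr rfl fun ω _ => by split_ifs <;> simp
    simp_rw [h1]
    have h2 : ∀ a, ∑ b, ∑ ω, (if S i ω = a ∧ S (i + 1) ω = b then w ω * g a b else 0)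
        = ∑ ω, (if S i ω = a then w ω * g a (S (i + 1) ω) else 0) := by
      intro a
      rw [Finset.sum_comm]
      refine Finset.sum_congr rfl fun ω _ => ?_
      by_cases ha : S i ω = a
      · simp [ha]
      · simp [ha]
    simp_rw [h2]
    rw [Finset.sum_comm]
    refine Finset.sum_congr rfl fun ω _ => ?_
    simp
  last := by
    intro g
    have h1 : ∀ b, L.mu n b * g b = ∑ ω, (if S n ω = b then w ω * g b else 0) := by
      intro b
      rw [← hl b, Finset.sum_mul]
      exact Finset.sum_congr rfl fun ω _ => by split_ifs <;> simp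
    simp_rw [h1]
    rw [Finset.sum_comm]
    refine Finset.sum_congr rfl fun ω _ => ?_
    simp

lemma pair_Pr {w : Ω → ℝ} {S : ℕ → Ω → σ} (hS : HasPairs L w S) {i : ℕ} (hi : i < n)
    (θ θ' : ℝ) [∀ ω, Decidable (θ ≤ phi L f i (S i ω) ↔ θ' ≤ phi L f (i + 1) (S (i + 1) ω))] :
    ∑ ω, w ω * (if (θ ≤ phi L f i (S i ω) ↔ θ' ≤ phi L f (i + 1) (S (i + 1) ω)) then 0 else 1)
      = Pr L f i θ θ' := by
  classical
  unfold Pr
  rw [← hS.pair i hi]
  refine Finset.sum_congr rfl fun ω _ => ?_
  split_ifs <;> rfl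

lemma chain_le {w : Ω → ℝ} {S : ℕ → Ω → σ} (hS : HasPairs L w S) (θ : ℕ → ℝ) :
    ∀ t, t ≤ n →
    ∀ [∀ ω, Decidable (θ 0 ≤ phi L f 0 (S 0 ω) ↔ θ t ≤ phi L f t (S t ω))],
    ∑ ω, w ω * (if (θ 0 ≤ phi L f 0 (S 0 ω) ↔ θ t ≤ phi L f t (S t ω)) then 0 else 1)
      ≤ ∑ i ∈ Ico 0 t, Pr L f i (θ i) (θ (i + 1)) := by
  classical
  intro t
  induction t with
  | zero =>
      intro _ _
      simp
  | succ t ih =>
      intro ht _
      rw [Finset.sum_Ico_succ_top (by omega)]
      refine le_trans ?_ (add_le_add (ih (by omega)) (le_of_eq (pair_Pr L f hS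
        (i := t) (by omega) (θ t) (θ (t + 1)))))
      rw [← Finset.sum_add_distrib]
      refine Finset.sum_le_sum fun ω _ => ?_
      rw [← mul_add]
      refine mul_le_mul_of_nonneg_left ?_ (hS.nonneg ω)
      by_cases h1 : θ 0 ≤ phi L f 0 (S 0 ω) <;> by_cases h2 : θ t ≤ phi L f t (S t ω) <;>
        by_cases h3 : θ (t + 1) ≤ phi L f (t + 1) (S (t + 1) ω) <;> simp [h1, h2, h3]

/-- **Comparison theorem.** Any process with the pair laws `L` has
`P (f (S_0) ≠ h (S_n)) ≤ KK N * Err`. -/
theorem comparison {N : ℕ} (hN : AtMost L N) (hf : ∀ a, f a = 0 ∨ f a = 1) {h : σ → ℝ}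
    (hh : ∀ a, h a = 0 ∨ h a = 1) {w : Ω → ℝ} {S : ℕ → Ω → σ} (hS : HasPairs L w S) :
    ∑ ω, w ω * |f (S 0 ω) - h (S n ω)| ≤ KK N * Err L f h := by
  classical
  have hE0 := En_zero L f hf
  have hEn := En_le_Err L f hf hh
  have hEpos : 0 ≤ En L f n := by
    rw [← hE0]; exact En_mono L f (Nat.zero_le n) (le_refl n)
  have hf' : ∀ a, 0 ≤ f a ∧ f a ≤ 1 := fun a => by rcases hf a with h | h <;> rw [h] <;> norm_num
  obtain ⟨θ, hθ, hsum⟩ := claim L f N (1 / 4) (3 / 4) 0 n (by norm_num) (Nat.zero_le n)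
    (le_refl n) (by
      unfold cnt
      rw [Finset.card_eq_zero, Finset.filter_eq_empty_iff]
      rintro a - ⟨-, h1, h2⟩
      change 1 / 4 < f a at h1
      change f a < 3 / 4 at h2
      rcases hf a with h | h <;> rw [h] at h1 h2 <;> linarith)
    (fun i _ hi => cnt_le L f hN hi _ _)
  have hchain := chain_le L f hS θ n (le_refl n)
  have h0 := hθ 0 (le_refl 0) (Nat.zero_le n)
  have hn := hθ n (Nat.zero_le n) (le_refl n)
  have hlast : ∑ ω, w ω * |(if θ n ≤ phi L f n (S n ω) then (1 : ℝ) else 0) - h (S n ω)|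
      ≤ 5 * Err L f h := by
    rw [hS.last (fun b => |(if θ n ≤ phi L f n b then (1 : ℝ) else 0) - h b|)]
    have h1 : ∑ b, L.mu n b * |(if θ n ≤ phi L f n b then (1 : ℝ) else 0) - h b| ≤
        4 * En L f n + Err L f h := by
      unfold En Err
      rw [Finset.mul_sum, ← Finset.sum_add_distrib]
      refine Finset.sum_le_sum fun b _ => ?_
      obtain ⟨h1, h2⟩ := phi_mem L f hf' n (le_refl n) b
      have h3 : |(if θ n ≤ phi L f n b then (1 : ℝ) else 0) - phi L f n b| ≤
          4 * (phi L f n b * (1 - phi L f n b)) := by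
        by_cases h4 : θ n ≤ phi L f n b
        · rw [if_pos h4, abs_of_nonneg (by linarith)]
          nlinarith [hn.1]
        · rw [if_neg h4]
          push Not at h4
          rw [zero_sub, abs_neg, abs_of_nonneg h1]
          nlinarith [hn.2]
      have h5 : |(if θ n ≤ phi L f n b then (1 : ℝ) else 0) - h b| ≤
          4 * (phi L f n b * (1 - phi L f n b)) + |phi L f n b - h b| :=
        (abs_sub_le _ (phi L f n b) _).trans (add_le_add h3 (le_refl _))
      calc L.mu n b * |(if θ n ≤ phi L f n b then (1 : ℝ) else 0) - h b|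
          ≤ L.mu n b * (4 * (phi L f n b * (1 - phi L f n b)) + |phi L f n b - h b|) :=
            mul_le_mul_of_nonneg_left h5 (L.mu_nonneg n b)
        _ = _ := by ring
    linarith
  have hfirst : ∑ ω, w ω * |f (S 0 ω) - h (S n ω)| ≤
      ∑ ω, w ω * (if (θ 0 ≤ phi L f 0 (S 0 ω) ↔ θ n ≤ phi L f n (S n ω)) then 0 else 1) +
      ∑ ω, w ω * |(if θ n ≤ phi L f n (S n ω) then (1 : ℝ) else 0) - h (S n ω)| := by
    rw [← Finset.sum_add_distrib]
    refine Finset.sum_le_sum fun ω _ => ?_
    rw [← mul_add]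
    refine mul_le_mul_of_nonneg_left ?_ (hS.nonneg ω)
    have hph : phi L f 0 (S 0 ω) = f (S 0 ω) := rfl
    rw [hph]
    refine (abs_sub_le _ (if θ n ≤ phi L f n (S n ω) then (1 : ℝ) else 0) _).trans
      (add_le_add ?_ (le_refl _))
    rcases hf (S 0 ω) with h1 | h1
    · rw [h1]
      have : ¬ θ 0 ≤ 0 := by linarith [h0.1]
      by_cases h2 : θ n ≤ phi L f n (S n ω) <;> simp [this, h2]
    · rw [h1]
      have : θ 0 ≤ 1 := by linarith [h0.2]
      by_cases h2 : θ n ≤ phi L f n (S n ω) <;> simp [this, h2]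
  have hC := CC_le N
  have hC4 := four_le_CC N
  have hsum' : ∑ i ∈ Ico 0 n, Pr L f i (θ i) (θ (i + 1)) ≤ 4 * CC N * Err L f h := by
    refine hsum.trans ?_
    rw [hE0, sub_zero]
    have : CC N / (3 / 4 - 1 / 4) ^ 2 = 4 * CC N := by norm_num; ring
    rw [this]
    exact mul_le_mul_of_nonneg_left hEn (by linarith)
  have hErr : 0 ≤ Err L f h := hEpos.trans hEn
  calc ∑ ω, w ω * |f (S 0 ω) - h (S n ω)| ≤ 4 * CC N * Err L f h + 5 * Err L f h :=
        hfirst.trans (add_le_add (hchain.trans hsum') hlast)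
    _ = (4 * CC N + 5) * Err L f h := by ring
    _ ≤ KK N * Err L f h := by
        refine mul_le_mul_of_nonneg_right ?_ hErr
        unfold KK
        linarith

/-- any family of backward averages agrees with `phi` on the charged states -/
lemma phi_unique {ψ : ℕ → σ → ℝ} (h0 : ψ 0 = f)
    (hψ : ∀ i, i < n → ∀ b, ∑ a, L.p i a b * ψ i a = L.mu (i + 1) b * ψ (i + 1) b) :
    ∀ i, i ≤ n → ∀ a, L.mu i a ≠ 0 → ψ i a = phi L f i a
  | 0, _, a, _ => by rw [h0]; rfl
  | (i + 1), hi, b, hb => by
      have ih := phi_unique h0 hψ i (by omega)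
      have h1 := hψ i (by omega) b
      have h2 := phi_mul L f (i := i) (by omega) b
      have h3 : ∑ a, L.p i a b * ψ i a = ∑ a, L.p i a b * phi L f i a := by
        refine Finset.sum_congr rfl fun a _ => ?_
        by_cases ha : L.mu i a = 0
        · rw [p_eq_zero_left L (by omega) ha b, zero_mul, zero_mul]
        · rw [ih a ha]
      rw [h1, h2] at h3
      exact mul_left_cancel₀ hb h3

/-- **Comparison theorem**, form with given conditional probabilities `ψ i a = P_M (f = 1 | S_i = a)`
(backward averages). -/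
theorem comparison' {N : ℕ} (hN : AtMost L N) (hf : ∀ a, f a = 0 ∨ f a = 1) {h : σ → ℝ}
    (hh : ∀ a, h a = 0 ∨ h a = 1) {w : Ω → ℝ} {S : ℕ → Ω → σ} (hS : HasPairs L w S)
    {ψ : ℕ → σ → ℝ} (h0 : ψ 0 = f)
    (hψ : ∀ i, i < n → ∀ b, ∑ a, L.p i a b * ψ i a = L.mu (i + 1) b * ψ (i + 1) b) :
    ∑ ω, w ω * |f (S 0 ω) - h (S n ω)| ≤ KK N * ∑ b, L.mu n b * |ψ n b - h b| := by
  have h1 := comparison L f hN hf hh hS
  have h2 : Err L f h = ∑ b, L.mu n b * |ψ n b - h b| := by
    unfold Err
    refine Finset.sum_congr rfl fun b _ => ?_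
    by_cases hb : L.mu n b = 0
    · rw [hb, zero_mul, zero_mul]
    · rw [phi_unique L f h0 hψ n (le_refl n) b hb]
  rwa [h2] at h1

end Vale.Agent.P235.H254
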