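import Vale.Agent.P235.H254.Comp

/-!
Two convenient forms of the comparison theorem: dependent state types, and a Markov law on a
finite probability space.
-/

namespace Vale.Agent.P235.H254

open Finset

lemma push1 {α τ : Type*} [Fintype α] [Fintype τ] [DecidableEq τ] (e : α → τ) (u : α → ℝ)
    (g : τ → ℝ) :
    ∑ x, (∑ a, if e a = x then u a else 0) * g x = ∑ a, u a * g (e a) := by
  simp_rw [Finset.sum_mul, ite_mul, zero_mul]
  rw [Finset.sum_comm]
  refine Finset.sum_congr rfl fun a _ => ?_
  simp

lemma push2 {α β τ : Type*} [Fintype α] [Fintype β] [Fintype τ] [DecidableEq τ]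
    (e : α → τ) (e' : β → τ) (u : α → β → ℝ) (g : τ → τ → ℝ) :
    ∑ x, ∑ y, (∑ a, ∑ b, if e a = x ∧ e' b = y then u a b else 0) * g x y
      = ∑ a, ∑ b, u a b * g (e a) (e' b) := by
  have h1 : ∀ x y, (∑ a, ∑ b, if e a = x ∧ e' b = y then u a b else 0) * g x y
      = ∑ a, ∑ b, (if e a = x then (if e' b = y then u a b * g x y else 0) else 0) := by
    intro x y
    rw [Finset.sum_mul]
    refine Finset.sum_congr rfl fun a _ => ?_
    rw [Finset.sum_mul]
    refine Finset.sum_congr rfl fun b _ => ?_
    by_cases h : e a = x <;> by_cases h' : e' b = y <;> simp [h, h']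
  simp_rw [h1]
  have h2 : ∀ x, ∑ y, ∑ a, ∑ b, (if e a = x then (if e' b = y then u a b * g x y else 0) else 0)
      = ∑ a, (if e a = x then ∑ b, u a b * g x (e' b) else 0) := by
    intro x
    rw [Finset.sum_comm]
    refine Finset.sum_congr rfl fun a _ => ?_
    rw [Finset.sum_comm]
    by_cases h : e a = x
    · simp [h]
    · simp [h]
  simp_rw [h2]
  rw [Finset.sum_comm]
  refine Finset.sum_congr rfl fun a _ => ?_
  simp

section Markov

variable {σ : Type*} [Fintype σ] {n : ℕ} (L : PairLaw σ n) (f : σ → ℝ)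

/-- **Comparison theorem**, form with a Markov law on a finite probability space. -/
theorem comparison_markov [DecidableEq σ] {N : ℕ} (hN : AtMost L N)
    (hf : ∀ a, f a = 0 ∨ f a = 1) {h : σ → ℝ} (hh : ∀ a, h a = 0 ∨ h a = 1)
    {Ω : Type*} [Fintype Ω] {w : Ω → ℝ} {S : ℕ → Ω → σ} (hS : HasPairs L w S)
    {Ω' : Type*} [Fintype Ω'] {w' : Ω' → ℝ} {S' : ℕ → Ω' → σ} (hM : HasPairs L w' S')
    (hmark : ∀ i, i < n → ∀ b,
      ∑ ω, w' ω * f (S' 0 ω) * (if S' (i + 1) ω = b then 1 else 0) =
      ∑ ω, w' ω * f (S' 0 ω) * (L.p i (S' i ω) b / L.mu i (S' i ω))) :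
    ∑ ω, w ω * |f (S 0 ω) - h (S n ω)| ≤ KK N * ∑ ω, w' ω * |f (S' 0 ω) - h (S' n ω)| := by
  classical
  set ψ : ℕ → σ → ℝ := fun i a => if i = 0 then f a else
    (∑ ω, w' ω * f (S' 0 ω) * (if S' i ω = a then 1 else 0)) / L.mu i a with hψdef
  have h0 : ψ 0 = f := by
    funext a
    simp [hψdef]
  -- the numerator identity
  have hmul : ∀ i, i < n → ∀ b, L.mu (i + 1) b * ψ (i + 1) b =
      ∑ ω, w' ω * f (S' 0 ω) * (if S' (i + 1) ω = b then 1 else 0) := by
    intro i hi b
    have e : ψ (i + 1) b = (∑ ω, w' ω * f (S' 0 ω) * (if S' (i + 1) ω = b then 1 else 0))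
        / L.mu (i + 1) b := by
      simp [hψdef]
    rw [e]
    by_cases hb : L.mu (i + 1) b = 0
    · rw [hb, zero_mul]
      symm
      have h1 := hM.pair i hi (fun _ y => if y = b then 1 else 0)
      have h2 : ∑ a, ∑ y, L.p i a y * (if y = b then (1 : ℝ) else 0) = 0 := by
        rw [sum_right L hi (fun y => if y = b then (1 : ℝ) else 0)]
        simp [hb]
      rw [h2] at h1
      have h3 := (Finset.sum_eq_zero_iff_of_nonneg (fun ω _ => mul_nonneg (hM.nonneg ω)
        (by split_ifs <;> norm_num))).1 h1
      refine Finset.sum_eq_zero fun ω _ => ?_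
      have h4 := h3 ω (mem_univ ω)
      have h5 : w' ω * f (S' 0 ω) * (if S' (i + 1) ω = b then (1 : ℝ) else 0)
          = (w' ω * (if S' (i + 1) ω = b then (1 : ℝ) else 0)) * f (S' 0 ω) := by ring
      rw [h5, h4, zero_mul]
    · field_simp
  have hψ : ∀ i, i < n → ∀ b, ∑ a, L.p i a b * ψ i a = L.mu (i + 1) b * ψ (i + 1) b := by
    intro i hi b
    rw [hmul i hi b]
    by_cases hi0 : i = 0
    · subst hi0
      rw [h0]
      have h1 := hM.pair 0 hi (fun x y => f x * (if y = b then 1 else 0))
      have h2 : ∑ a, ∑ y, L.p 0 a y * (f a * (if y = b then (1 : ℝ) else 0))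
          = ∑ a, L.p 0 a b * f a := by
        refine Finset.sum_congr rfl fun a _ => ?_
        rw [Finset.sum_eq_single b]
        · simp
        · intro y _ hy
          simp [hy]
        · intro hb
          exact absurd (mem_univ b) hb
      rw [h2] at h1
      rw [← h1]
      exact Finset.sum_congr rfl fun ω _ => by ring
    · rw [hmark i hi b]
      have h1 : ∀ a, L.p i a b * ψ i a = ∑ ω, (if S' i ω = a then
          w' ω * f (S' 0 ω) * (L.p i a b / L.mu i a) else 0) := by
        intro a
        have e : ψ i a = (∑ ω, w' ω * f (S' 0 ω) * (if S' i ω = a then 1 else 0))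
            / L.mu i a := by
          simp [hψdef, hi0]
        rw [e, mul_div_assoc', mul_comm (L.p i a b), mul_div_assoc, Finset.sum_mul]
        refine Finset.sum_congr rfl fun ω _ => ?_
        by_cases h : S' i ω = a <;> simp [h]
      simp_rw [h1]
      rw [Finset.sum_comm]
      refine Finset.sum_congr rfl fun ω _ => ?_
      simp
  have hmain := comparison' L f hN hf hh hS h0 hψ
  have hend : ∑ b, L.mu n b * |ψ n b - h b| = ∑ ω, w' ω * |f (S' 0 ω) - h (S' n ω)| := by
    rcases Nat.eq_zero_or_pos n with hn | hn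
    · subst hn
      rw [h0, hM.last (fun b => |f b - h b|)]
    · obtain ⟨i, rfl⟩ : ∃ i, n = i + 1 := ⟨n - 1, by omega⟩
      have key : ∀ b, L.mu (i + 1) b * |ψ (i + 1) b - h b| =
          ∑ ω, w' ω * |f (S' 0 ω) - h (S' (i + 1) ω)| * (if S' (i + 1) ω = b then 1 else 0) := by
        intro b
        have hm := hmul i (by omega) b
        have hmu : L.mu (i + 1) b = ∑ ω, w' ω * (if S' (i + 1) ω = b then 1 else 0) := by
          rw [hM.last (fun y => if y = b then (1 : ℝ) else 0)]
          simp
        have hmunn := L.mu_nonneg (i + 1) b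
        have hnum0 : 0 ≤ L.mu (i + 1) b * ψ (i + 1) b := by
          rw [hm]
          refine Finset.sum_nonneg fun ω _ => ?_
          refine mul_nonneg (mul_nonneg (hM.nonneg ω) ?_) (by split_ifs <;> norm_num)
          rcases hf (S' 0 ω) with h1 | h1 <;> rw [h1]
          exact zero_le_one
        have hnum1 : L.mu (i + 1) b * ψ (i + 1) b ≤ L.mu (i + 1) b := by
          rw [hm, hmu]
          refine Finset.sum_le_sum fun ω _ => ?_
          refine mul_le_mul_of_nonneg_right ?_ (by split_ifs <;> norm_num)
          rcases hf (S' 0 ω) with h1 | h1 <;> rw [h1]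
          · rw [mul_zero]; exact hM.nonneg ω
          · rw [mul_one]
        have habs : L.mu (i + 1) b * |ψ (i + 1) b - h b| =
            |L.mu (i + 1) b * ψ (i + 1) b - L.mu (i + 1) b * h b| := by
          rw [← mul_sub, abs_mul, abs_of_nonneg hmunn]
        rw [habs]
        rcases hh b with h3 | h3
        · rw [h3, mul_zero, sub_zero, abs_of_nonneg hnum0, hm]
          refine Finset.sum_congr rfl fun ω _ => ?_
          by_cases h4 : S' (i + 1) ω = b
          · rw [if_pos h4, h4, h3, sub_zero]
            rcases hf (S' 0 ω) with h1 | h1 <;> rw [h1] <;> simp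
          · rw [if_neg h4, mul_zero, mul_zero]
        · rw [h3, mul_one, abs_sub_comm, abs_of_nonneg (by linarith), hm, hmu,
            ← Finset.sum_sub_distrib]
          refine Finset.sum_congr rfl fun ω _ => ?_
          by_cases h4 : S' (i + 1) ω = b
          · rw [if_pos h4, h4, h3]
            rcases hf (S' 0 ω) with h1 | h1 <;> rw [h1] <;> simp
          · rw [if_neg h4, mul_zero, mul_zero, mul_zero, sub_zero]
      simp_rw [key]
      rw [Finset.sum_comm]
      refine Finset.sum_congr rfl fun ω _ => ?_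
      simp
  rwa [hend] at hmain

end Markov

section Dep

variable {n : ℕ} (α : ℕ → Type*)

/-- the common state type -/
abbrev St (n : ℕ) := Option (Σ i : Fin (n + 1), α i)

/-- embedding of the `i`-th state type -/
def emb (n : ℕ) (i : ℕ) (a : α i) : St α n :=
  if h : i < n + 1 then some ⟨⟨i, h⟩, a⟩ else none

lemma emb_inj {i : ℕ} (hi : i ≤ n) {a b : α i} (h : emb α n i a = emb α n i b) : a = b := by
  have h1 : i < n + 1 := by omega
  simp only [emb, dif_pos h1, Option.some.injEq, Sigma.mk.injEq, heq_eq_eq, true_and] at h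
  exact h

variable [∀ i, Fintype (α i)]

/-- **Comparison theorem**, dependent state types. -/
theorem comparison_dep {N : ℕ} (hN : ∀ i, i ≤ n → Fintype.card (α i) ≤ N)
    (p : ∀ i, α i → α (i + 1) → ℝ) (m : ∀ i, α i → ℝ) (hp : ∀ i a b, 0 ≤ p i a b)
    (hm : ∀ i a, 0 ≤ m i a) (hrow : ∀ i, i < n → ∀ a, ∑ b, p i a b = m i a)
    (hcol : ∀ i, i < n → ∀ b, ∑ a, p i a b = m (i + 1) b)
    (φ : ∀ i, α i → ℝ) (hφ0 : ∀ a, φ 0 a = 0 ∨ φ 0 a = 1)
    (hφ : ∀ i, i < n → ∀ b, ∑ a, p i a b * φ i a = m (i + 1) b * φ (i + 1) b)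
    (h : α n → ℝ) (hh : ∀ a, h a = 0 ∨ h a = 1)
    {Ω : Type*} [Fintype Ω] (w : Ω → ℝ) (hw : ∀ ω, 0 ≤ w ω) (S : ∀ i, Ω → α i)
    (hpair : ∀ i, i < n → ∀ g : α i → α (i + 1) → ℝ,
      ∑ ω, w ω * g (S i ω) (S (i + 1) ω) = ∑ a, ∑ b, p i a b * g a b)
    (hlast : ∀ g : α n → ℝ, ∑ ω, w ω * g (S n ω) = ∑ b, m n b * g b) :
    ∑ ω, w ω * |φ 0 (S 0 ω) - h (S n ω)| ≤ KK N * ∑ b, m n b * |φ n b - h b| := by
  classical
  -- extension of functions on `α i` to the common type
  let ex : ∀ i, (α i → ℝ) → St α n → ℝ := fun i u x => ∑ a, if emb α n i a = x then u a else 0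
  have hex : ∀ i, i ≤ n → ∀ (u : α i → ℝ) (a : α i), ex i u (emb α n i a) = u a := by
    intro i hi u a
    simp only [ex]
    rw [Finset.sum_eq_single a]
    · simp
    · intro b _ hb
      rw [if_neg]
      intro h1
      exact hb (emb_inj α hi h1)
    · intro h1
      exact absurd (mem_univ a) h1
  let L : PairLaw (St α n) n :=
    { mu := fun i x => ∑ a, if emb α n i a = x then m i a else 0
      p := fun i x y => ∑ a, ∑ b, if emb α n i a = x ∧ emb α n (i + 1) b = y then p i a b else 0
      p_nonneg := fun i x y => Finset.sum_nonneg fun a _ => Finset.sum_nonneg fun b _ => by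
        split_ifs
        · exact hp i a b
        · exact le_refl _
      mu_nonneg := fun i x => Finset.sum_nonneg fun a _ => by
        split_ifs
        · exact hm i a
        · exact le_refl _
      left := by
        intro i hi x
        rw [Finset.sum_comm]
        refine Finset.sum_congr rfl fun a _ => ?_
        rw [Finset.sum_comm]
        by_cases h1 : emb α n i a = x
        · simp [h1, hrow i hi a]
        · simp [h1]
      right := by
        intro i hi y
        have h1 : ∀ x, (∑ a, ∑ b, if emb α n i a = x ∧ emb α n (i + 1) b = y then p i a b else 0)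
            = ∑ b, if emb α n (i + 1) b = y then
              (∑ a, if emb α n i a = x then p i a b else 0) else 0 := by
          intro x
          rw [Finset.sum_comm]
          refine Finset.sum_congr rfl fun b _ => ?_
          by_cases h2 : emb α n (i + 1) b = y
          · simp [h2]
          · simp [h2]
        simp_rw [h1]
        rw [Finset.sum_comm]
        refine Finset.sum_congr rfl fun b _ => ?_
        by_cases h2 : emb α n (i + 1) b = y
        · simp only [if_pos h2]
          rw [Finset.sum_comm]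
          simp [hcol i hi b]
        · simp [h2] }
  have hL : AtMost L N := by
    intro i hi
    refine ⟨univ.image (emb α n i), Finset.card_image_le.trans ?_, ?_⟩
    · rw [Finset.card_univ]
      exact hN i hi
    · intro x hx
      by_contra hc
      apply hx
      refine Finset.sum_eq_zero fun a _ => ?_
      rw [if_neg]
      intro h1
      exact hc (Finset.mem_image.2 ⟨a, mem_univ a, h1⟩)
  have hS : HasPairs L w (fun i ω => emb α n i (S i ω)) :=
    { nonneg := hw
      pair := by
        intro i hi g
        rw [hpair i hi (fun a b => g (emb α n i a) (emb α n (i + 1) b))]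
        exact (push2 (emb α n i) (emb α n (i + 1)) (p i) g).symm
      last := by
        intro g
        rw [hlast (fun b => g (emb α n n b))]
        exact (push1 (emb α n n) (m n) g).symm }
  have hex01 : ∀ i, i ≤ n → ∀ u : α i → ℝ, (∀ a, u a = 0 ∨ u a = 1) →
      ∀ x, ex i u x = 0 ∨ ex i u x = 1 := by
    intro i hi u hu x
    by_cases hx : ∃ a, emb α n i a = x
    · obtain ⟨a, rfl⟩ := hx
      rw [hex i hi u a]
      exact hu a
    · left
      refine Finset.sum_eq_zero fun a _ => ?_
      rw [if_neg]
      intro h1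
      exact hx ⟨a, h1⟩
  have key := comparison' L (ex 0 (φ 0)) hL (hex01 0 (Nat.zero_le n) _ hφ0)
    (h := ex n h) (hex01 n (le_refl n) _ hh) hS (ψ := fun i => ex i (φ i)) rfl (by
      intro i hi y
      have h1 : ∑ x, L.p i x y * ex i (φ i) x =
          ∑ b, if emb α n (i + 1) b = y then m (i + 1) b * φ (i + 1) b else 0 := by
        have h2 : ∀ x, L.p i x y * ex i (φ i) x = ∑ a, if emb α n i a = x then
            (∑ b, if emb α n (i + 1) b = y then p i a b * φ i a else 0) else 0 := by
          intro x
          change (∑ a, ∑ b, if emb α n i a = x ∧ emb α n (i + 1) b = y then p i a b else 0)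
            * ex i (φ i) x = _
          rw [Finset.sum_mul]
          refine Finset.sum_congr rfl fun a _ => ?_
          by_cases h3 : emb α n i a = x
          · rw [if_pos h3, Finset.sum_mul]
            refine Finset.sum_congr rfl fun b _ => ?_
            rw [← h3, hex i hi.le (φ i) a]
            by_cases h4 : emb α n (i + 1) b = y <;> simp [h4]
          · simp [h3]
        simp_rw [h2]
        rw [Finset.sum_comm]
        simp only [Finset.sum_ite_eq, mem_univ, if_true]
        rw [Finset.sum_comm]
        refine Finset.sum_congr rfl fun b _ => ?_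
        by_cases h4 : emb α n (i + 1) b = y
        · simp only [if_pos h4]
          exact hφ i hi b
        · simp [h4]
      have h5 : L.mu (i + 1) y * ex (i + 1) (φ (i + 1)) y =
          ∑ b, if emb α n (i + 1) b = y then m (i + 1) b * φ (i + 1) b else 0 := by
        change (∑ b, if emb α n (i + 1) b = y then m (i + 1) b else 0) * _ = _
        rw [Finset.sum_mul]
        refine Finset.sum_congr rfl fun b _ => ?_
        by_cases h4 : emb α n (i + 1) b = y
        · rw [if_pos h4, if_pos h4, ← h4, hex (i + 1) (by omega) (φ (i + 1)) b]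
        · simp [h4]
      rw [h1, h5])
  have hl : ∑ ω, w ω * |ex 0 (φ 0) (emb α n 0 (S 0 ω)) - ex n h (emb α n n (S n ω))|
      = ∑ ω, w ω * |φ 0 (S 0 ω) - h (S n ω)| :=
    Finset.sum_congr rfl fun ω _ => by
      rw [hex 0 (Nat.zero_le n) (φ 0), hex n (le_refl n) h]
  have hr : ∑ x, L.mu n x * |ex n (φ n) x - ex n h x| = ∑ b, m n b * |φ n b - h b| := by
    rw [show ∑ x, L.mu n x * |ex n (φ n) x - ex n h x| = _ from
      push1 (emb α n n) (m n) (fun x => |ex n (φ n) x - ex n h x|)]
    refine Finset.sum_congr rfl fun b _ => ?_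
    rw [hex n (le_refl n) (φ n) b, hex n (le_refl n) h b]
  rw [hl, hr] at key
  exact key

end Dep

end Vale.Agent.P235.H254
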